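import Vale.Agent.P072.Defs

set_option linter.unusedVariables false
set_option linter.unusedSimpArgs false

namespace Vale.Agent.P072h7

open Vale.Agent.P072 Metric Set Filter Topology

open scoped NNReal

variable {d : ℕ}

theorem mono_contDiff (y : Cplx d) : ContDiff ℝ 1 (fun x : Fin d → ℝ => mono x y) := by
  unfold mono
  apply contDiff_prod
  intro i _
  exact ((contDiff_apply ℝ ℝ i).pow (y i))

theorem massAction_contDiff (N : Network d) (k : Cplx d × Cplx d → ℝ) :
    ContDiff ℝ 1 (massAction N k) := by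
  rw [contDiff_pi]
  intro i
  unfold massAction
  apply ContDiff.sum
  intro r _
  exact ((contDiff_const.mul (mono_contDiff r.1)).mul contDiff_const)

/-- The closed box. -/
def box (d : ℕ) (a b : ℝ) : Set (Fin d → ℝ) := {x | ∀ i, a ≤ x i ∧ x i ≤ b}

theorem box_eq (a b : ℝ) : box d a b = Set.pi univ (fun _ => Set.Icc a b) := by
  ext x
  simp only [box, Set.mem_pi, Set.mem_ofPred_eq, Set.mem_Icc, Set.mem_univ, true_implies]

theorem isCompact_box (a b : ℝ) : IsCompact (box d a b) := by
  rw [box_eq]
  exact isCompact_univ_pi (fun _ => isCompact_Icc)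

theorem isClosed_box (a b : ℝ) : IsClosed (box d a b) := (isCompact_box a b).isClosed

theorem closedBall_subset_box {δ R a : ℝ} {x₀ : Fin d → ℝ} (hx : x₀ ∈ box d δ R) :
    closedBall x₀ a ⊆ box d (δ - a) (R + a) := by
  intro y hy i
  have h1 : dist y x₀ ≤ a := hy
  have h2 : dist (y i) (x₀ i) ≤ dist y x₀ := dist_le_pi_dist y x₀ i
  have h3 := abs_le.mp (by simpa [Real.dist_eq] using le_trans h2 h1 : |y i - x₀ i| ≤ a)
  have h4 := hx i
  constructor <;> linarith [h3.1, h3.2, h4.1, h4.2]

/-- One uniform Picard step. -/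
theorem uniform_step {f : (Fin d → ℝ) → (Fin d → ℝ)} (hf : ContDiff ℝ 1 f) {δ R : ℝ}
    (hδ : 0 < δ) :
    ∃ τ > (0 : ℝ), ∀ x₀ ∈ box d δ R, ∃ α : ℝ → (Fin d → ℝ), α 0 = x₀ ∧
      (∀ t ∈ Icc 0 τ, HasDerivWithinAt α (f (α t)) (Icc 0 τ) t) ∧
      (∀ t, α t ∈ box d (δ / 2) (R + δ / 2)) := by
  classical
  set B := box d (δ / 2) (R + δ / 2) with hB
  have hBc : IsCompact B := isCompact_box _ _
  obtain ⟨K, hK⟩ : ∃ K, LipschitzOnWith K f B :=
    LocallyLipschitzOn.exists_lipschitzOnWith_of_compact hBc
      ((hf.locallyLipschitz).locallyLipschitzOn)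
  obtain ⟨L₀, hL₀⟩ := hBc.exists_bound_of_continuousOn hf.continuous.continuousOn
  set L : ℝ≥0 := ⟨|L₀| + 1, by positivity⟩ with hL
  have hLpos : (0 : ℝ) < L := by
    show 0 < |L₀| + 1
    positivity
  set a : ℝ≥0 := ⟨δ / 2, by positivity⟩ with ha
  have haval : (a : ℝ) = δ / 2 := rfl
  set τ : ℝ := (δ / 2) / L with hτ
  have hτpos : 0 < τ := by positivity
  refine ⟨τ, hτpos, ?_⟩
  intro x₀ hx₀
  have hball : closedBall x₀ (a : ℝ) ⊆ B := by
    intro y hy
    have h1 := closedBall_subset_box (a := δ / 2) hx₀ hy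
    have e : δ - δ / 2 = δ / 2 := by ring
    rw [e] at h1
    exact h1
  have ht0 : (0 : ℝ) ∈ Icc 0 τ := ⟨le_rfl, hτpos.le⟩
  have hPL : IsPicardLindelof (fun _ => f) (tmin := 0) (tmax := τ) ⟨0, ht0⟩ x₀ a 0 L K := by
    apply IsPicardLindelof.of_time_independent
    · intro x hx
      have h1 := hL₀ x (hball hx)
      show ‖f x‖ ≤ |L₀| + 1
      linarith [le_abs_self L₀]
    · exact hK.mono hball
    · have e3 : ((0 : ℝ) - 0) = 0 := sub_zero 0
      have e1 : τ - ((⟨0, ht0⟩ : Icc 0 τ) : ℝ) = τ := by
        show τ - 0 = τ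
        ring
      have e2 : ((⟨0, ht0⟩ : Icc 0 τ) : ℝ) - 0 = 0 := by
        show (0 : ℝ) - 0 = 0
        ring
      rw [e1, e2, max_eq_left hτpos.le]
      have : (L : ℝ) * τ = δ / 2 := by
        rw [hτ]
        field_simp
      rw [this, haval]
      simp
  obtain ⟨α, hα⟩ := ODE.FunSpace.exists_isFixedPt_next hPL (mem_closedBall_self (by simp))
  refine ⟨α.compProj, ?_, ?_, ?_⟩
  · have := ODE.FunSpace.compProj_val (α := α) (t := ⟨0, ht0⟩)
    have e : α ⟨0, ht0⟩ = x₀ := by
      rw [← hα, ODE.FunSpace.next_apply₀]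
    rw [this, e]
  · intro t ht
    apply ODE.hasDerivWithinAt_picard_Icc ht0 hPL.continuousOn_uncurry
      α.continuous_compProj.continuousOn (fun _ ht' ↦ α.compProj_mem_closedBall hPL.mul_max_le)
      x₀ ht |>.congr_of_mem _ ht
    intro t' ht'
    nth_rw 1 [← hα]
    rw [ODE.FunSpace.compProj_of_mem ht', ODE.FunSpace.next_apply]
  · intro t
    exact hball (α.compProj_mem_closedBall hPL.mul_max_le)

theorem IsPositiveSolution.mono {N : Network d} {k : ℝ → Cplx d × Cplx d → ℝ} {T T' : ℝ}
    {x : ℝ → Fin d → ℝ} (h : IsPositiveSolution N k T x) (hT : T' ≤ T) :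
    IsPositiveSolution N k T' x where
  pos := fun t ht => h.pos t ⟨ht.1, lt_of_lt_of_le ht.2 hT⟩
  cont := h.cont.mono (Set.Ico_subset_Ico_right hT)
  deriv := fun t ht => h.deriv t ⟨ht.1, lt_of_lt_of_le ht.2 hT⟩

section glue

variable (step : (Fin d → ℝ) → ℝ → (Fin d → ℝ)) (τ : ℝ) (c : Fin d → ℝ)

/-- The break points. -/
noncomputable def pts : ℕ → (Fin d → ℝ)
  | 0 => c
  | m + 1 => step (pts m) τ

/-- The glued curve. -/
noncomputable def glue (t : ℝ) : Fin d → ℝ :=
  step (pts step τ c ⌊t / τ⌋₊) (t - (⌊t / τ⌋₊ : ℝ) * τ)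

variable {step τ c}

theorem floor_eq (hτ : 0 < τ) {m : ℕ} {t : ℝ} (h1 : (m : ℝ) * τ ≤ t) (h2 : t < ((m : ℝ) + 1) * τ) :
    ⌊t / τ⌋₊ = m := by
  have h3 : 0 ≤ (m : ℝ) * τ := by positivity
  have h0 : 0 ≤ t / τ := div_nonneg (by linarith) hτ.le
  rw [Nat.floor_eq_iff h0]
  constructor
  · rw [le_div_iff₀ hτ]; exact h1
  · rw [div_lt_iff₀ hτ]; exact h2

theorem glue_piece (hτ : 0 < τ) {m : ℕ} {t : ℝ} (h1 : (m : ℝ) * τ ≤ t)
    (h2 : t < ((m : ℝ) + 1) * τ) :
    glue step τ c t = step (pts step τ c m) (t - (m : ℝ) * τ) := by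
  unfold glue
  rw [floor_eq hτ h1 h2]

theorem glue_at (hτ : 0 < τ) (m : ℕ) :
    glue step τ c ((m : ℝ) * τ) = step (pts step τ c m) 0 := by
  have h := glue_piece (step := step) (c := c) hτ (m := m) (t := (m : ℝ) * τ) le_rfl (by nlinarith)
  rw [h, sub_self]

end glue

/-- Global existence from an a priori trap. -/
theorem exists_global (N : Network d) (k : Cplx d × Cplx d → ℝ) {δ R : ℝ} (hδ : 0 < δ)
    {c : Fin d → ℝ} (hc : c ∈ box d δ R)
    (trap : ∀ (T : ℝ) (x : ℝ → Fin d → ℝ), IsPositiveSolution N (fun _ => k) T x → x 0 = c →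
      ∀ t ∈ Set.Ico 0 T, x t ∈ box d δ R) :
    ∃ x : ℝ → Fin d → ℝ, x 0 = c ∧ ∀ T, IsPositiveSolution N (fun _ => k) T x := by
  classical
  set f := massAction N k with hf
  obtain ⟨τ, hτ, hstep⟩ := uniform_step (R := R) (massAction_contDiff N k) hδ
  choose! step hs0 hsd hsb using hstep
  set P := pts step τ c with hP
  set g := glue step τ c with hg
  have hg0 : g 0 = c := by
    have h := glue_at (step := step) (τ := τ) (c := c) hτ 0
    simp only [Nat.cast_zero, zero_mul] at h
    rw [hg, h]
    show step c 0 = c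
    exact hs0 c hc
  have hbpos : ∀ (y : ℝ → Fin d → ℝ) (u : Fin d → ℝ), u ∈ box d (δ / 2) (R + δ / 2) →
      ∀ i, 0 < u i := by
    intro y u hu i
    have := (hu i).1
    linarith
  -- the induction
  have key : ∀ m : ℕ, P m ∈ box d δ R ∧ ContinuousOn g (Icc 0 ((m : ℝ) * τ)) ∧
      ∀ t ∈ Set.Ico 0 ((m : ℝ) * τ), (∀ i, 0 < g t i) ∧
        HasDerivWithinAt g (massAction N k (g t)) (Ici t) t := by
    intro m
    induction m with
    | zero =>
      refine ⟨hc, ?_, ?_⟩
      · simp only [Nat.cast_zero, zero_mul, Icc_self, continuousOn_singleton]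
      · intro t ht
        simp only [Nat.cast_zero, zero_mul] at ht
        exact absurd ht.2 (not_lt.mpr ht.1)
    | succ m ih =>
      obtain ⟨hPm, hcont, hd⟩ := ih
      have hm0 : (0 : ℝ) ≤ (m : ℝ) * τ := by positivity
      have e1 : ((m + 1 : ℕ) : ℝ) * τ = (m : ℝ) * τ + τ := by
        push_cast; ring
      set α := step (P m) with hα
      have hα0 : α 0 = P m := hs0 _ hPm
      have hαd := hsd _ hPm
      have hαb : ∀ t, α t ∈ box d (δ / 2) (R + δ / 2) := hsb _ hPm
      have hαc : ContinuousOn α (Icc 0 τ) := fun t ht => (hαd t ht).continuousWithinAt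
      set a := (m : ℝ) * τ with ha
      have hpiece : ∀ t, a ≤ t → t < a + τ → g t = α (t - a) := by
        intro t h1 h2
        rw [hg]
        have e : ((m : ℝ) + 1) * τ = a + τ := by rw [ha]; ring
        exact glue_piece hτ h1 (by rw [e]; exact h2)
      have hgat : g a = P m := by
        have := hpiece a le_rfl (by linarith)
        rw [this, sub_self, hα0]
      -- the continuous model
      set h : ℝ → Fin d → ℝ := fun t => if t ≤ a then g t else α (t - a) with hh
      have hshift : ContinuousOn (fun t => α (t - a)) (Icc a (a + τ)) := by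
        apply hαc.comp (by fun_prop)
        intro t ht
        exact ⟨by linarith [ht.1], by linarith [ht.2]⟩
      have hhc : ContinuousOn h (Icc 0 (a + τ)) := by
        have e : Icc 0 (a + τ) = Icc 0 a ∪ Icc a (a + τ) :=
          (Icc_union_Icc_eq_Icc hm0 (by linarith)).symm
        rw [e]
        apply ContinuousOn.union_of_isClosed _ _ isClosed_Icc isClosed_Icc
        · apply hcont.congr
          intro t ht
          simp only [hh, if_pos ht.2]
        · apply hshift.congr
          intro t ht
          rcases eq_or_lt_of_le ht.1 with h1 | h1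
          · subst h1
            simp only [hh, le_refl, if_true, hgat, sub_self, hα0]
          · simp only [hh, if_neg (not_le.mpr h1)]
      have hgh : ∀ t ∈ Set.Ico 0 (a + τ), g t = h t := by
        intro t ht
        by_cases h1 : t ≤ a
        · simp only [hh, if_pos h1]
        · simp only [hh, if_neg h1]
          exact hpiece t (le_of_not_ge h1) ht.2
      have hgc : ContinuousOn g (Set.Ico 0 (a + τ)) :=
        (hhc.mono Ico_subset_Icc_self).congr hgh
      -- positivity and derivative
      have hnew : ∀ t ∈ Set.Ico 0 (a + τ), (∀ i, 0 < g t i) ∧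
          HasDerivWithinAt g (massAction N k (g t)) (Ici t) t := by
        intro t ht
        by_cases h1 : t < a
        · exact hd t ⟨ht.1, h1⟩
        · have h1' : a ≤ t := not_lt.mp h1
          have hgt := hpiece t h1' ht.2
          constructor
          · rw [hgt]
            exact hbpos g _ (hαb _)
          · have hu : t - a ∈ Icc 0 τ := ⟨by linarith, by linarith [ht.2]⟩
            have h2 := hαd (t - a) hu
            have h3 : HasDerivWithinAt α (massAction N k (α (t - a))) (Ici (t - a)) (t - a) := by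
              apply h2.mono_of_mem_nhdsWithin
              apply mem_of_superset (Ico_mem_nhdsGE (show t - a < τ by linarith [ht.2]))
              intro s hs
              exact ⟨by linarith [hs.1, hu.1], hs.2.le⟩
            have h4 : HasDerivWithinAt (fun s => α (s - a)) (massAction N k (α (t - a)))
                (Ici t) t := by
              have h5 : HasDerivWithinAt (fun s : ℝ => s - a) 1 (Ici t) t :=
                (hasDerivWithinAt_id t _).sub_const a
              have h6 := h3.scomp t h5 (by
                intro s hs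
                show t - a ≤ s - a
                have : t ≤ s := hs
                linarith)
              rw [one_smul] at h6
              exact h6
            rw [hgt]
            apply h4.congr_of_eventuallyEq _ hgt
            have : Ico t (a + τ) ∈ 𝓝[≥] t := Ico_mem_nhdsGE ht.2
            filter_upwards [this] with s hs
            exact hpiece s (le_trans h1' hs.1) hs.2
      have hsol : IsPositiveSolution N (fun _ => k) (a + τ) g :=
        ⟨fun t ht => (hnew t ht).1, hgc, fun t ht => (hnew t ht).2⟩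
      have htrap := trap (a + τ) g hsol hg0
      -- the next point is in the box
      have hP1 : P (m + 1) = α τ := rfl
      have hnext : P (m + 1) ∈ box d δ R := by
        have hτmem : τ ∈ Icc 0 τ := ⟨hτ.le, le_rfl⟩
        have hlim : Tendsto (fun t => α (t - a)) (𝓝[<] (a + τ)) (𝓝 (α τ)) := by
          have h1 : ContinuousWithinAt (fun t => α (t - a)) (Icc a (a + τ)) (a + τ) :=
            hshift (a + τ) ⟨by linarith, le_rfl⟩
          have e2 : a + τ - a = τ := by ring
          have h2 := h1.tendsto
          simp only [e2] at h2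
          apply h2.mono_left
          apply nhdsWithin_le_of_mem
          apply mem_of_superset (Ico_mem_nhdsLT (by linarith : a < a + τ))
          exact Ico_subset_Icc_self
        rw [hP1]
        apply (isClosed_box δ R).mem_of_tendsto hlim
        have : Ico a (a + τ) ∈ 𝓝[<] (a + τ) := Ico_mem_nhdsLT (by linarith)
        filter_upwards [this] with s hs
        rw [← hpiece s hs.1 hs.2]
        exact htrap s ⟨le_trans hm0 hs.1, hs.2⟩
      refine ⟨hnext, ?_, ?_⟩
      · rw [e1]
        apply hhc.congr
        intro t ht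
        rcases eq_or_lt_of_le ht.2 with h1 | h1
        · subst h1
          have h2 := glue_at (step := step) (τ := τ) (c := c) hτ (m + 1)
          have h3 : g (a + τ) = P (m + 1) := by
            rw [hg, ← e1, h2]
            exact hs0 _ hnext
          rw [h3, hP1]
          simp only [hh]
          rw [if_neg (by linarith)]
          congr 1
          ring
        · exact hgh t ⟨ht.1, h1⟩
      · rw [e1]
        exact hnew
  refine ⟨g, hg0, ?_⟩
  intro T
  obtain ⟨m, hm⟩ := exists_nat_ge (T / τ)
  have hT : T ≤ (m : ℝ) * τ := by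
    rwa [div_le_iff₀ hτ] at hm
  obtain ⟨_, h1, h2⟩ := key m
  have hs : IsPositiveSolution N (fun _ => k) ((m : ℝ) * τ) g :=
    ⟨fun t ht => (h2 t ht).1, h1.mono Ico_subset_Icc_self, fun t ht => (h2 t ht).2⟩
  exact IsPositiveSolution.mono hs hT

/-- A continuous curve with continuous right derivative has a two-sided derivative inside. -/
theorem hasDerivAt_of_right {N : Network d} {k : Cplx d × Cplx d → ℝ} {T : ℝ}
    {x : ℝ → Fin d → ℝ} (h : IsPositiveSolution N (fun _ => k) T x) {t : ℝ} (h0 : 0 < t)
    (hT : t < T) : HasDerivAt x (massAction N k (x t)) t := by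
  set f := massAction N k with hf
  have hfc : Continuous f := (massAction_contDiff N k).continuous
  set b := (t + T) / 2 with hb
  have htb : t < b := by rw [hb]; linarith
  have hbT : b < T := by rw [hb]; linarith
  have hsub : Icc 0 b ⊆ Ico 0 T := fun s hs => ⟨hs.1, lt_of_le_of_lt hs.2 hbT⟩
  have hxc : ContinuousOn x (Icc 0 b) := h.cont.mono hsub
  have hgc : ContinuousOn (fun s => f (x s)) (Icc 0 b) := hfc.comp_continuousOn hxc
  have hb0 : 0 ≤ b := by linarith
  -- extend the integrand
  set G : ℝ → Fin d → ℝ := fun s => f (x (projIcc 0 b hb0 s)) with hG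
  have hGc : Continuous G := by
    have h1 : Continuous fun s : Icc (0 : ℝ) b => f (x s) :=
      continuousOn_iff_continuous_domRestrict.mp hgc
    exact h1.comp continuous_projIcc
  have hGeq : ∀ s ∈ Icc 0 b, G s = f (x s) := by
    intro s hs
    simp only [hG]
    rw [projIcc_of_mem hb0 hs]
  set I : ℝ → Fin d → ℝ := fun s => x 0 + ∫ u in (0 : ℝ)..s, G u with hI
  have hId : ∀ s, HasDerivAt I (G s) s := by
    intro s
    have := intervalIntegral.integral_hasDerivAt_right (hGc.intervalIntegrable 0 s)
      (hGc.stronglyMeasurableAtFilter _ _) hGc.continuousAt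
    exact this.const_add _
  have hconst : ∀ s ∈ Icc 0 b, (fun s => x s - I s) s = (fun s => x s - I s) 0 := by
    apply constant_of_has_deriv_right_zero
    · apply hxc.sub
      exact (continuous_iff_continuousAt.mpr fun s => (hId s).continuousAt).continuousOn
    · intro s hs
      have h1 := h.deriv s ⟨hs.1, lt_trans hs.2 hbT⟩
      have h2 := (hId s).hasDerivWithinAt (s := Ici s)
      have h3 := h1.sub h2
      rw [hGeq s ⟨hs.1, hs.2.le⟩, sub_self] at h3
      exact h3
  have hxI : ∀ s ∈ Icc 0 b, x s = I s := by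
    intro s hs
    have h1 := hconst s hs
    simp only [hI, intervalIntegral.integral_same, add_zero, sub_self] at h1
    simpa [sub_eq_zero] using h1
  have hev : x =ᶠ[𝓝 t] I := by
    have : Icc 0 b ∈ 𝓝 t := Icc_mem_nhds h0 htb
    filter_upwards [this] with s hs
    exact hxI s hs
  have h4 := (hId t).congr_of_eventuallyEq hev
  rwa [hGeq t ⟨h0.le, htb.le⟩] at h4

end Vale.Agent.P072h7
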